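import Crest.Agent.R106.Iface

/-! Row 106: elementary facts on the shared definitions. -/

set_option autoImplicit false

noncomputable section

namespace Crest.Agent.R106

open MeasureTheory Set Crest.AnalysisR.VecCalc3 Crest.AnalysisR.PDE.RVM
open scoped ContDiff

theorem one_le_jb (v : R3) : 1 ≤ Real.sqrt (1 + ‖v‖ ^ 2) := by
  rw [Real.one_le_sqrt]; nlinarith [sq_nonneg ‖v‖]

theorem norm_le_jb (v : R3) : ‖v‖ ≤ Real.sqrt (1 + ‖v‖ ^ 2) :=
  Real.le_sqrt_of_sq_le (by linarith)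

theorem relVel_norm_le (v : R3) : ‖relVel v‖ ≤ 1 := by
  have h0 : 0 < Real.sqrt (1 + ‖v‖ ^ 2) := lt_of_lt_of_le one_pos (one_le_jb v)
  rw [relVel, norm_smul, Real.norm_eq_abs, abs_of_pos (inv_pos.2 h0), inv_mul_le_iff₀ h0, mul_one]
  exact norm_le_jb v

theorem relVel_smooth : ContDiff ℝ ∞ relVel := by
  unfold relVel
  refine ContDiff.smul (ContDiff.inv (ContDiff.sqrt (contDiff_const.add (contDiff_norm_sq ℝ)) fun v => ?_) fun v => ?_)
    contDiff_id
  · positivity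
  · exact (lt_of_lt_of_le one_pos (one_le_jb v)).ne'

theorem relVel_fderiv_le (v : R3) : ‖fderiv ℝ relVel v‖ ≤ 2 := by
  set s := Real.sqrt (1 + ‖v‖ ^ 2) with hs
  have h1s : 1 ≤ s := one_le_jb v
  have hv : ‖v‖ ≤ s := norm_le_jb v
  have h0 : 0 < s := lt_of_lt_of_le one_pos h1s
  have h1 : HasFDerivAt (fun v : R3 => 1 + ‖v‖ ^ 2) (2 • innerSL ℝ v) v :=
    (hasStrictFDerivAt_norm_sq v).hasFDerivAt.const_add 1
  have h2 := h1.sqrt (by positivity)
  have h3 := (hasDerivAt_inv h0.ne').comp_hasFDerivAt v h2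
  have h4 := h3.smul (hasFDerivAt_id v)
  have e : relVel = ((fun y : ℝ => y⁻¹) ∘ fun y : R3 => Real.sqrt (1 + ‖y‖ ^ 2)) • (id : R3 → R3) := by
    funext w; rfl
  rw [e, h4.fderiv]
  refine (norm_add_le _ _).trans ?_
  have a1 : ‖((fun y : ℝ => y⁻¹) ∘ fun y : R3 => Real.sqrt (1 + ‖y‖ ^ 2)) v • ContinuousLinearMap.id ℝ R3‖ ≤ 1 := by
    rw [norm_smul]
    refine mul_le_one₀ ?_ (norm_nonneg _) ContinuousLinearMap.norm_id_le
    simp only [Function.comp, Real.norm_eq_abs]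
    rw [← hs, abs_of_pos (inv_pos.2 h0)]
    exact inv_le_one_of_one_le₀ h1s
  refine le_trans (add_le_add a1 (le_of_eq (ContinuousLinearMap.norm_smulRight_apply _ _))) ?_
  have a2 : ‖(2 : ℕ) • innerSL ℝ v‖ ≤ 2 * ‖v‖ := by
    rw [two_nsmul]
    refine (norm_add_le _ _).trans ?_
    rw [innerSL_apply_norm]; linarith
  rw [norm_smul, norm_smul, ← hs, Real.norm_eq_abs, Real.norm_eq_abs, abs_neg, abs_of_pos (by positivity),
    abs_of_pos (by positivity)]
  have a3 : (s ^ 2)⁻¹ * (1 / (2 * s) * ‖(2 : ℕ) • innerSL ℝ v‖) * ‖id v‖ ≤ (s ^ 2)⁻¹ * (1 / (2 * s) * (2 * s)) * s := by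
    have : ‖(2 : ℕ) • innerSL ℝ v‖ ≤ 2 * s := a2.trans (by linarith)
    simp only [id]
    gcongr
  have a4 : (s ^ 2)⁻¹ * (1 / (2 * s) * (2 * s)) * s = s⁻¹ := by field_simp
  have a5 : s⁻¹ ≤ 1 := inv_le_one_of_one_le₀ h1s
  linarith

/-- the cross product as a continuous bilinear map -/
def crossL : R3 →L[ℝ] R3 →L[ℝ] R3 :=
  LinearMap.toContinuousLinearMap
    { toFun := fun a => LinearMap.toContinuousLinearMap
        { toFun := fun b => cross3 a b
          map_add' := fun b c => by ext i; fin_cases i <;> simp [cross3] <;> ring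
          map_smul' := fun r b => by ext i; fin_cases i <;> simp [cross3] <;> ring }
      map_add' := fun a a' => by ext b i; fin_cases i <;> simp [cross3] <;> ring
      map_smul' := fun r a => by ext b i; fin_cases i <;> simp [cross3] <;> ring }

theorem crossL_apply (a b : R3) : crossL a b = cross3 a b := rfl

section B1

variable {Y F F' F'' : Type} [NormedAddCommGroup Y] [NormedSpace ℝ Y] [NormedAddCommGroup F] [NormedSpace ℝ F]
  [NormedAddCommGroup F'] [NormedSpace ℝ F'] [NormedAddCommGroup F''] [NormedSpace ℝ F'']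

/-- smooth, bounded with bounded derivative on time slabs -/
def B1 (u : ℝ × Y → F) : Prop :=
  ContDiff ℝ ∞ u ∧ ∀ T : ℝ, ∃ C : ℝ, 0 ≤ C ∧ ∀ z : ℝ × Y, |z.1| ≤ T → ‖u z‖ ≤ C ∧ ‖fderiv ℝ u z‖ ≤ C

theorem Slab.b1 {u : ℝ × Y → F} (h : Slab u) : B1 u := by
  refine ⟨h.1, fun T => ?_⟩
  obtain ⟨C0, h0⟩ := h.2 0 T
  obtain ⟨C1, h1⟩ := h.2 1 T
  refine ⟨max 0 (max C0 C1), le_max_left _ _, fun z hz => ⟨?_, ?_⟩⟩
  · have := h0 z hz
    rw [norm_iteratedFDeriv_zero] at this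
    exact this.trans ((le_max_left _ _).trans (le_max_right _ _))
  · have := h1 z hz
    rw [← norm_iteratedFDeriv_fderiv, norm_iteratedFDeriv_zero] at this
    exact this.trans ((le_max_right _ _).trans (le_max_right _ _))

theorem B1.diff {u : ℝ × Y → F} (h : B1 u) : Differentiable ℝ u := h.1.differentiable (by simp)

theorem B1.add {u w : ℝ × Y → F} (hu : B1 u) (hw : B1 w) : B1 fun z => u z + w z := by
  refine ⟨hu.1.add hw.1, fun T => ?_⟩
  obtain ⟨C, hC0, hC⟩ := hu.2 T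
  obtain ⟨D, hD0, hD⟩ := hw.2 T
  refine ⟨C + D, by positivity, fun z hz => ⟨(norm_add_le _ _).trans (add_le_add (hC z hz).1 (hD z hz).1), ?_⟩⟩
  rw [((hu.diff z).hasFDerivAt.fun_add (hw.diff z).hasFDerivAt).fderiv]
  exact (norm_add_le _ _).trans (add_le_add (hC z hz).2 (hD z hz).2)

theorem B1.prodMk {u : ℝ × Y → F} {w : ℝ × Y → F'} (hu : B1 u) (hw : B1 w) : B1 fun z => (u z, w z) := by
  refine ⟨hu.1.prodMk hw.1, fun T => ?_⟩
  obtain ⟨C, hC0, hC⟩ := hu.2 T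
  obtain ⟨D, hD0, hD⟩ := hw.2 T
  refine ⟨C + D, by positivity, fun z hz => ⟨?_, ?_⟩⟩
  · rw [Prod.norm_def]
    exact max_le (by linarith [(hC z hz).1]) (by linarith [(hD z hz).1])
  · rw [((hu.diff z).hasFDerivAt.prodMk (hw.diff z).hasFDerivAt).fderiv]
    refine ContinuousLinearMap.opNorm_le_bound _ (by positivity) fun y => ?_
    rw [ContinuousLinearMap.prod_apply, Prod.norm_def]
    have a := (fderiv ℝ u z).le_of_opNorm_le (hC z hz).2 y
    have b := (fderiv ℝ w z).le_of_opNorm_le (hD z hz).2 y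
    have := norm_nonneg y
    exact max_le (by nlinarith) (by nlinarith)

theorem B1.bilin (L : F →L[ℝ] F' →L[ℝ] F'') {u : ℝ × Y → F} {w : ℝ × Y → F'} (hu : B1 u) (hw : B1 w) :
    B1 fun z => L (u z) (w z) := by
  refine ⟨(L.contDiff.comp hu.1).clm_apply hw.1, fun T => ?_⟩
  obtain ⟨C, hC0, hC⟩ := hu.2 T
  obtain ⟨D, hD0, hD⟩ := hw.2 T
  refine ⟨2 * (‖L‖ * C * D), by positivity, fun z hz => ⟨?_, ?_⟩⟩
  · have a : ‖L (u z) (w z)‖ ≤ ‖L‖ * C * D := (L.le_opNorm₂ _ _).trans (by gcongr; exacts [(hC z hz).1, (hD z hz).1])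
    have : 0 ≤ ‖L‖ * C * D := by positivity
    linarith
  · rw [(L.hasFDerivAt_of_bilinear (hu.diff z).hasFDerivAt (hw.diff z).hasFDerivAt).fderiv]
    refine ContinuousLinearMap.opNorm_le_bound _ (by positivity) fun y => ?_
    have a := (fderiv ℝ u z).le_of_opNorm_le (hC z hz).2 y
    have b := (fderiv ℝ w z).le_of_opNorm_le (hD z hz).2 y
    have a1 : ‖L (u z) (fderiv ℝ w z y)‖ ≤ ‖L‖ * C * (D * ‖y‖) :=
      (L.le_opNorm₂ _ _).trans (by gcongr; exact (hC z hz).1)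
    have a2 : ‖L (fderiv ℝ u z y) (w z)‖ ≤ ‖L‖ * (C * ‖y‖) * D :=
      (L.le_opNorm₂ _ _).trans (by gcongr; exact (hD z hz).1)
    simp only [add_apply, ContinuousLinearMap.precompR_apply, ContinuousLinearMap.precompL_apply,
      ContinuousLinearMap.compL_apply, ContinuousLinearMap.comp_apply]
    refine (norm_add_le _ _).trans ?_
    nlinarith

theorem B1.comp_x {u : ST → F} (hu : B1 u) : B1 fun z : ℝ × P6 => u (z.1, z.2.1) := by
  let L : ℝ × P6 →L[ℝ] ST := (ContinuousLinearMap.fst ℝ ℝ P6).prod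
    ((ContinuousLinearMap.fst ℝ R3 R3).comp (ContinuousLinearMap.snd ℝ ℝ P6))
  have e : (fun z : ℝ × P6 => u (z.1, z.2.1)) = u ∘ L := rfl
  rw [e]
  refine ⟨hu.1.comp L.contDiff, fun T => ?_⟩
  obtain ⟨C, hC0, hC⟩ := hu.2 T
  refine ⟨C * (1 + ‖L‖), by positivity, fun z hz => ⟨?_, ?_⟩⟩
  · have := (hC (L z) hz).1
    have h2 : 0 ≤ C * ‖L‖ := by positivity
    simp only [Function.comp]; nlinarith
  · rw [((hu.diff (L z)).hasFDerivAt.comp z L.hasFDerivAt).fderiv]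
    refine (ContinuousLinearMap.opNorm_comp_le _ _).trans ?_
    have := (hC (L z) hz).2
    have h2 := norm_nonneg L
    nlinarith

theorem b1_v {g : R3 → F} (hg : ContDiff ℝ ∞ g) {C : ℝ} (h0 : ∀ v, ‖g v‖ ≤ C) (h1 : ∀ v, ‖fderiv ℝ g v‖ ≤ C) :
    B1 fun z : ℝ × P6 => g z.2.2 := by
  let L : ℝ × P6 →L[ℝ] R3 := (ContinuousLinearMap.snd ℝ R3 R3).comp (ContinuousLinearMap.snd ℝ ℝ P6)
  have e : (fun z : ℝ × P6 => g z.2.2) = g ∘ L := rfl
  have hC0 : 0 ≤ C := (norm_nonneg _).trans (h0 0)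
  rw [e]
  refine ⟨hg.comp L.contDiff, fun T => ⟨C * (1 + ‖L‖), by positivity, fun z _ => ⟨?_, ?_⟩⟩⟩
  · have := h0 (L z)
    have h2 : 0 ≤ C * ‖L‖ := by positivity
    simp only [Function.comp]; nlinarith
  · rw [((hg.differentiable (by simp) (L z)).hasFDerivAt.comp z L.hasFDerivAt).fderiv]
    refine (ContinuousLinearMap.opNorm_comp_le _ _).trans ?_
    have := h1 (L z)
    have h2 := norm_nonneg L
    nlinarith

theorem B1.lip {b : ℝ × Y → F} (hb : B1 b) (T : ℝ) :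
    ∃ K : NNReal, ∀ t, |t| ≤ T → LipschitzWith K fun y => b (t, y) := by
  obtain ⟨C, hC0, hC⟩ := hb.2 T
  refine ⟨⟨C, hC0⟩, fun t ht => ?_⟩
  have hd : ∀ y : Y, HasFDerivAt (fun y => b (t, y)) ((fderiv ℝ b (t, y)).comp (ContinuousLinearMap.inr ℝ ℝ Y)) y :=
    fun y => (hb.diff (t, y)).hasFDerivAt.comp y (hasFDerivAt_prodMk_right t y)
  refine lipschitzWith_of_nnnorm_fderiv_le (𝕜 := ℝ) (fun y => (hd y).differentiableAt) fun y => ?_
  rw [(hd y).fderiv, ← NNReal.coe_le_coe, coe_nnnorm]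
  refine ContinuousLinearMap.opNorm_le_bound _ hC0 fun w => ?_
  have := (fderiv ℝ b (t, y)).le_of_opNorm_le (hC (t, y) ht).2 (0, w)
  have e : ‖((0, w) : ℝ × Y)‖ = ‖w‖ := by simp
  rw [e] at this
  exact this

end B1

theorem b1_relVel : B1 fun z : ℝ × P6 => relVel z.2.2 :=
  b1_v relVel_smooth (C := 2) (fun v => (relVel_norm_le v).trans (by norm_num)) relVel_fderiv_le

theorem b1_vf {E B : ST → R3} (hE : B1 E) (hB : B1 B) : B1 (vf E B) :=
  b1_relVel.prodMk (hE.comp_x.add (B1.bilin crossL b1_relVel hB.comp_x))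

theorem b1_vfG {P : ℝ} {G : R3 → (R3 × R3 →L[ℝ] R3)} (hG : IsCut P G) {E B : ST → R3} (hE : B1 E) (hB : B1 B) :
    B1 (vfG G E B) := by
  obtain ⟨C0, h0⟩ := hG.1.continuous.bounded_above_of_compact_support hG.2.1
  obtain ⟨C1, h1⟩ := (hG.1.continuous_fderiv (by simp)).bounded_above_of_compact_support (hG.2.1.fderiv (𝕜 := ℝ))
  have hg : B1 fun z : ℝ × P6 => G z.2.2 :=
    b1_v hG.1 (C := max C0 C1) (fun v => (h0 v).trans (le_max_left _ _)) fun v => (h1 v).trans (le_max_right _ _)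
  exact b1_relVel.prodMk (B1.bilin (ContinuousLinearMap.id ℝ (R3 × R3 →L[ℝ] R3)) hg (hE.comp_x.prodMk hB.comp_x))

theorem S_FLOW.of_b1 (h : S_FLOW) {f₀ : P6 → ℝ} (hf : ContDiff ℝ ∞ f₀) {b : ℝ × P6 → P6} (hb : B1 b) :
    Nonempty (Lag f₀ b) :=
  h f₀ b hf hb.1 fun T => by
    obtain ⟨C, -, hC⟩ := hb.2 T
    exact ⟨C, fun z hz => (hC z hz).2⟩

/-- derivative of a function along a characteristic -/
theorem hasDerivAt_along {g : ℝ × P6 → ℝ} (hg : Differentiable ℝ g) {Z : ℝ → P6} {w : P6} {t : ℝ}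
    (hZ : HasDerivAt Z w t) : HasDerivAt (fun s => g (s, Z s)) (fderiv ℝ g (t, Z t) (1, w)) t :=
  (hg (t, Z t)).hasFDerivAt.comp_hasDerivAt t ((hasDerivAt_id t).prodMk hZ)

namespace Lag

variable {f₀ : P6 → ℝ} {b : ℝ × P6 → P6}

theorem diff (L : Lag f₀ b) : Differentiable ℝ L.f := L.smooth.differentiable (by simp)

/-- the transport equation -/
theorem pde (L : Lag f₀ b) (z : ℝ × P6) : fderiv ℝ L.f z (1, b z) = 0 := by
  obtain ⟨t, w⟩ := z
  obtain ⟨y, rfl⟩ := (L.bij t).2 w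
  have h1 := hasDerivAt_along L.diff (L.ode y t)
  have h2 : (fun s => L.f (s, L.Z s y)) = fun _ => f₀ y := funext fun s => L.trans s y
  rw [h2] at h1
  exact h1.unique (hasDerivAt_const t _)

theorem init (L : Lag f₀ b) (z : P6) : L.f (0, z) = f₀ z := by
  have := L.trans 0 z
  rwa [L.Z0] at this

theorem cont (L : Lag f₀ b) (z : P6) : Continuous fun s => L.Z s z :=
  continuous_iff_continuousAt.2 fun s => (L.ode z s).continuousAt

/-- a point where `f` does not vanish lies on a characteristic from the support of the datum -/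
theorem exists_of_ne (L : Lag f₀ b) {t : ℝ} {w : P6} (h : L.f (t, w) ≠ 0) : ∃ z, f₀ z ≠ 0 ∧ L.Z t z = w := by
  obtain ⟨y, rfl⟩ := (L.bij t).2 w
  exact ⟨y, by rwa [L.trans] at h, rfl⟩

end Lag

/-- the derivative in the direction `(1, a, c)` in the coordinates of the Prelude -/
theorem fderiv_split {g : ℝ × P6 → ℝ} (hg : Differentiable ℝ g) (t : ℝ) (x v a c : R3) :
    fderiv ℝ g (t, x, v) (1, a, c) = deriv (fun s => cur3 g s x v) t +
      ∑ i : Fin 3, a i * pderiv (fun y => cur3 g t y v) i x + ∑ i : Fin 3, c i * pderiv (fun w => cur3 g t x w) i v := by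
  set A := fderiv ℝ g (t, x, v) with hA
  have h0 : HasFDerivAt g A (t, x, v) := (hg _).hasFDerivAt
  have h1 : HasDerivAt (fun s => cur3 g s x v) (A (1, 0)) t :=
    h0.comp_hasDerivAt t ((hasDerivAt_id t).prodMk (hasDerivAt_const t (x, v)))
  have h2 : HasFDerivAt (fun y => cur3 g t y v)
      (A.comp ((ContinuousLinearMap.inr ℝ ℝ P6).comp (ContinuousLinearMap.inl ℝ R3 R3))) x :=
    h0.comp x ((hasFDerivAt_prodMk_right t (x, v)).comp x (hasFDerivAt_prodMk_left x v))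
  have h3 : HasFDerivAt (fun w => cur3 g t x w)
      (A.comp ((ContinuousLinearMap.inr ℝ ℝ P6).comp (ContinuousLinearMap.inr ℝ R3 R3))) v :=
    h0.comp v ((hasFDerivAt_prodMk_right t (x, v)).comp v (hasFDerivAt_prodMk_right x v))
  have hs : ∀ (M : R3 →L[ℝ] ℝ) (a : R3), ∑ i : Fin 3, a i * M (EuclideanSpace.single i 1) = M a := fun M a => by
    have h : a = ∑ i : Fin 3, a i • (EuclideanSpace.single i 1 : R3) := by
      ext j; fin_cases j <;> simp [Fin.sum_univ_three]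
    conv_rhs => rw [h, map_sum]
    simp only [map_smul, smul_eq_mul]
  unfold pderiv
  rw [h1.deriv, h2.fderiv, h3.fderiv, hs, hs]
  have : ((1, a, c) : ℝ × P6) = (1, 0) + (0, a, 0) + (0, 0, c) := by simp
  rw [this, map_add, map_add]
  rfl

/-- the Vlasov equation and the Maxwell equations give `EquationsHoldAt` -/
theorem eqs_of {f₀ : P6 → ℝ} {E B : ST → R3} (L : Lag f₀ (vf E B)) {t : ℝ} {x : R3}
    (h : MaxwellAt (cur3 L.f) (cur2 E) (cur2 B) t x) : EquationsHoldAt (cur3 L.f) (cur2 E) (cur2 B) t x := by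
  refine ⟨fun v => ?_, h⟩
  have := L.pde (t, x, v)
  rw [show vf E B (t, x, v) = (relVel v, E (t, x) + cross3 (relVel v) (B (t, x))) from rfl, fderiv_split L.diff] at this
  exact this

end Crest.Agent.R106
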