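import Crest.Prelude.Def_VlasovMaxwell

/-!
Row 106 (global regularity for the relativistic Vlasov–Maxwell system).  Shared definitions, see notes106/design.md.
All objects are smooth on the WHOLE time axis; functions are uncurried (`z.1` = time).
-/

set_option autoImplicit false

noncomputable section

namespace Crest.Agent.R106

open MeasureTheory Crest.AnalysisR.VecCalc3 Crest.AnalysisR.PDE.RVM
open scoped ContDiff

/-- phase space `(x, v)` -/
abbrev P6 := R3 × R3
/-- space-time `(t, x)` -/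
abbrev ST := ℝ × R3

/-- smooth, all derivatives bounded on every time slab -/
def Slab {Y F : Type} [NormedAddCommGroup Y] [NormedSpace ℝ Y] [NormedAddCommGroup F] [NormedSpace ℝ F]
    (u : ℝ × Y → F) : Prop :=
  ContDiff ℝ ∞ u ∧ ∀ (k : ℕ) (T : ℝ), ∃ C : ℝ, ∀ z : ℝ × Y, |z.1| ≤ T → ‖iteratedFDeriv ℝ k u z‖ ≤ C

/-- Lorentz force `E + v̂ × B` at the space-time point `p` on momentum `v` -/
def force (E B : ST → R3) (p : ST) (v : R3) : R3 := E p + cross3 (relVel v) (B p)

/-- the characteristic vector field -/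
def vf (E B : ST → R3) (z : ℝ × P6) : P6 := (relVel z.2.2, force E B (z.1, z.2.1) z.2.2)

/-- the characteristic vector field of a cut-off force `G v (E, B)` -/
def vfG (G : R3 → (R3 × R3 →L[ℝ] R3)) (E B : ST → R3) (z : ℝ × P6) : P6 :=
  (relVel z.2.2, G z.2.2 (E (z.1, z.2.1), B (z.1, z.2.1)))

/-- `G` is a smooth compactly supported force law, equal to the Lorentz force for `‖v‖ ≤ P` -/
def IsCut (P : ℝ) (G : R3 → (R3 × R3 →L[ℝ] R3)) : Prop :=
  ContDiff ℝ ∞ G ∧ HasCompactSupport G ∧ ∀ v e b : R3, ‖v‖ ≤ P → G v (e, b) = e + cross3 (relVel v) b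

/-- Lagrangian data for the vector field `b`: the flow `Z t` from time `0` to time `t` and the transported density -/
structure Lag (f₀ : P6 → ℝ) (b : ℝ × P6 → P6) where
  Z : ℝ → P6 → P6
  f : ℝ × P6 → ℝ
  smooth : ContDiff ℝ ∞ f
  smoothZ : ContDiff ℝ ∞ fun z : ℝ × P6 => Z z.1 z.2
  Z0 : ∀ z, Z 0 z = z
  ode : ∀ z t, HasDerivAt (fun s => Z s z) (b (t, Z t z)) t
  bij : ∀ t, Function.Bijective (Z t)
  trans : ∀ t z, f (t, Z t z) = f₀ z

/-- curried forms, as in the Prelude -/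
def cur3 (f : ℝ × P6 → ℝ) : ℝ → R3 → R3 → ℝ := fun t x v => f (t, x, v)
def cur2 (E : ST → R3) : ℝ → R3 → R3 := fun t x => E (t, x)

/-- the four Maxwell equations of `EquationsHoldAt` -/
def MaxwellAt (f : ℝ → R3 → R3 → ℝ) (E B : ℝ → R3 → R3) (t : ℝ) (x : R3) : Prop :=
  (∀ i : Fin 3, deriv (fun s => E s x i) t - curl3 (B t) x i = - currentDensity f t x i) ∧
  (∀ i : Fin 3, deriv (fun s => B s x i) t + curl3 (E t) x i = 0) ∧
  div3 (E t) x = chargeDensity f t x ∧
  div3 (B t) x = 0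

/-- a smooth solution on `[0, T]` together with its characteristic flow -/
structure Sol (f₀ : R3 → R3 → ℝ) (E₀ B₀ : R3 → R3) (T : ℝ) where
  E : ST → R3
  B : ST → R3
  hE : Slab E
  hB : Slab B
  L : Lag (Function.uncurry f₀) (vf E B)
  vol : ∀ t, 0 ≤ t → MeasurePreserving (L.Z t) volume volume
  initE : ∀ x, E (0, x) = E₀ x
  initB : ∀ x, B (0, x) = B₀ x
  eqs : ∀ t, 0 ≤ t → t ≤ T → ∀ x, EquationsHoldAt (cur3 L.f) (cur2 E) (cur2 B) t x

end Crest.Agent.R106
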