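import Crest.Agent.R106.Defs

/-! Row 106: block statements.  `S0140` follows from these six (assembly: `R106/Main.lean`). -/

set_option autoImplicit false

namespace Crest.Agent.R106

open MeasureTheory Crest.AnalysisR.VecCalc3 Crest.AnalysisR.PDE.RVM
open scoped ContDiff

/-- FLOW: global smooth flow of a smooth field whose derivative is bounded on time slabs. -/
def S_FLOW : Prop :=
  ∀ (f₀ : P6 → ℝ) (b : ℝ × P6 → P6), ContDiff ℝ ∞ f₀ → ContDiff ℝ ∞ b →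
    (∀ T : ℝ, ∃ C : ℝ, ∀ z : ℝ × P6, |z.1| ≤ T → ‖fderiv ℝ b z‖ ≤ C) → Nonempty (Lag f₀ b)

/-- LIOUVILLE: the true flow preserves Lebesgue measure. -/
def S_LIOU : Prop :=
  ∀ (f₀ : P6 → ℝ) (E B : ST → R3), ContDiff ℝ ∞ E → ContDiff ℝ ∞ B → ∀ (L : Lag f₀ (vf E B)) (t : ℝ), 0 ≤ t →
    MeasurePreserving (L.Z t) volume volume

/-- CUT-OFF SYSTEM: for every `P, T` there is a cut-off force law (the prover chooses it) for which the system has a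
solution on `[0, T]` that is smooth on the whole time axis. -/
def S_TR : Prop :=
  ∀ (f₀ : R3 → R3 → ℝ) (E₀ B₀ : R3 → R3), IsAdmissibleDatum f₀ E₀ B₀ → ∀ P T : ℝ,
    ∃ (G : R3 → (R3 × R3 →L[ℝ] R3)) (f : ℝ × P6 → ℝ) (E B : ST → R3), IsCut P G ∧ ContDiff ℝ ∞ f ∧ Slab E ∧ Slab B ∧
      (∀ x v, f (0, x, v) = f₀ x v) ∧ (∀ x, E (0, x) = E₀ x) ∧ (∀ x, B (0, x) = B₀ x) ∧
      (∀ z : ℝ × P6, 0 ≤ z.1 → z.1 ≤ T → fderiv ℝ f z (1, vfG G E B z) = 0) ∧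
      ∀ t, 0 ≤ t → t ≤ T → ∀ x, MaxwellAt (cur3 f) (cur2 E) (cur2 B) t x

/-- A PRIORI BOUND on the momenta, uniform over all solutions with the given data on subintervals of `[0, T]`. -/
def S_AP : Prop :=
  ∀ (f₀ : R3 → R3 → ℝ) (E₀ B₀ : R3 → R3), IsAdmissibleDatum f₀ E₀ B₀ →
    ∀ T : ℝ, ∃ P : ℝ, ∀ T' ≤ T, ∀ (s : Sol f₀ E₀ B₀ T') (t : ℝ), 0 ≤ t → t ≤ T' →
      ∀ z : P6, f₀ z.1 z.2 ≠ 0 → ‖(s.L.Z t z).2‖ ≤ P

/-- CLASSICAL: a smooth solution is a classical solution (supports, `L²` bounds and `L²` continuity). -/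
def S_CL : Prop :=
  ∀ (f₀ : R3 → R3 → ℝ) (E₀ B₀ : R3 → R3), IsAdmissibleDatum f₀ E₀ B₀ →
    ∀ (T : ℝ) (s : Sol f₀ E₀ B₀ T), IsClassicalSolutionOn T f₀ E₀ B₀ (cur3 s.L.f) (cur2 s.E) (cur2 s.B)

/-- UNIQUENESS of classical solutions. -/
def S_UNI : Prop :=
  ∀ (T : ℝ) (f₀ : R3 → R3 → ℝ) (E₀ B₀ : R3 → R3) (f f' : ℝ → R3 → R3 → ℝ) (E B E' B' : ℝ → R3 → R3),
    IsClassicalSolutionOn T f₀ E₀ B₀ f E B → IsClassicalSolutionOn T f₀ E₀ B₀ f' E' B' →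
    ∀ t ∈ Set.Ico 0 T, f' t = f t ∧ E' t = E t ∧ B' t = B t

end Crest.Agent.R106
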