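import Mathlib

/-! Row 106 (helper48): a uniformly Cauchy sequence of smooth maps with uniform bounds on all derivatives
on a uniformly thick convex set has a smooth limit, and all derivatives converge uniformly. -/

set_option autoImplicit false

noncomputable section

namespace Crest.Agent.R106.Lim

open Set Filter Topology Metric
open scoped ContDiff

variable {X : Type} [NormedAddCommGroup X] [NormedSpace ℝ X]

/-- `S` is convex and uniformly thick: every point is within `R` of the centre of a ball of radius `c` in `S`. -/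
structure Thick (S : Set X) : Prop where
  conv : Convex ℝ S
  ball : ∃ c R : ℝ, 0 < c ∧ 0 ≤ R ∧ ∀ x ∈ S, ∃ z, ‖z - x‖ ≤ R ∧ closedBall z c ⊆ S

theorem Thick.uniqueDiffOn {S : Set X} (h : Thick S) : UniqueDiffOn ℝ S := by
  rcases S.eq_empty_or_nonempty with rfl | ⟨x, hx⟩
  · exact uniqueDiffOn_empty
  obtain ⟨c, R, hc, -, hb⟩ := h.ball
  obtain ⟨z, -, hz⟩ := hb x hx
  exact uniqueDiffOn_convex h.conv
    ⟨z, mem_interior_iff_mem_nhds.2 (mem_of_superset (closedBall_mem_nhds z hc) hz)⟩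

/-- the slab `[0,T] × Z` -/
theorem thick_slab {Z : Type} [NormedAddCommGroup Z] [NormedSpace ℝ Z] {a b : ℝ} (hab : a < b) :
    Thick (Icc a b ×ˢ (univ : Set Z)) := by
  refine ⟨(convex_Icc a b).prod convex_univ, (b - a) / 2, (b - a) / 2, by linarith, by linarith, ?_⟩
  rintro ⟨t, y⟩ ⟨⟨h1, h2⟩, -⟩
  simp only at h1 h2
  refine ⟨((a + b) / 2, y), ?_, ?_⟩
  · simp only [Prod.mk_sub_mk, sub_self, Prod.norm_def, norm_zero, Real.norm_eq_abs]
    refine max_le (abs_le.2 ⟨by linarith, by linarith⟩) (by linarith)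
  · rintro ⟨s, w⟩ hs
    have := (mem_closedBall.1 hs)
    rw [Prod.dist_eq, max_le_iff, Real.dist_eq, abs_le] at this
    exact ⟨⟨by simp only; linarith [this.1.1], by simp only; linarith [this.1.2]⟩, trivial⟩

section
variable {Y : Type} [NormedAddCommGroup Y] [NormedSpace ℝ Y]

/-- first order Taylor estimate on a convex set -/
theorem taylor1 {S : Set X} (hS : Convex ℝ S) {G : X → Y} (hG : ContDiff ℝ ∞ G) {C : ℝ}
    (hC : ∀ x ∈ S, ‖fderiv ℝ (fderiv ℝ G) x‖ ≤ C) {x y : X} (hx : x ∈ S) (hy : y ∈ S) :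
    ‖G y - G x - fderiv ℝ G x (y - x)‖ ≤ C * ‖y - x‖ * ‖y - x‖ := by
  have hC0 : 0 ≤ C := le_trans (ContinuousLinearMap.opNorm_nonneg _) (hC x hx)
  have hd : Differentiable ℝ G := hG.differentiable (by simp)
  have hd2 : Differentiable ℝ (fderiv ℝ G) :=
    (hG.fderiv_right (m := ∞) (by simp)).differentiable (by simp)
  have hsub : segment ℝ x y ⊆ S := hS.segment_subset hx hy
  have h1 : ∀ z ∈ segment ℝ x y, ‖fderiv ℝ G z - fderiv ℝ G x‖ ≤ C * ‖y - x‖ := by
    intro z hz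
    have := hS.norm_image_sub_le_of_norm_fderiv_le (fun w _ => hd2 w) hC hx (hsub hz)
    refine this.trans (mul_le_mul_of_nonneg_left ?_ hC0)
    rw [← dist_eq_norm, ← dist_eq_norm, dist_comm, dist_comm y]
    have := dist_add_dist_of_mem_segment hz
    linarith [dist_nonneg (x := z) (y := y)]
  exact (convex_segment x y).norm_image_sub_le_of_norm_fderiv_le' (fun w _ => hd w) h1
    (left_mem_segment ℝ x y) (right_mem_segment ℝ x y)

/-- interpolation: small function + bounded second derivative gives small derivative -/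
theorem interp {S : Set X} (hS : Thick S) (C : ℝ) {ε : ℝ} (hε : 0 < ε) :
    ∃ δ > 0, ∀ G : X → Y, ContDiff ℝ ∞ G → (∀ x ∈ S, ‖fderiv ℝ (fderiv ℝ G) x‖ ≤ C) →
      (∀ x ∈ S, ‖G x‖ ≤ δ) → ∀ x ∈ S, ‖fderiv ℝ G x‖ ≤ ε := by
  obtain ⟨c, R, hc, hR, hb⟩ := hS.ball
  set A := |C| * (R + c) ^ 2 + 1 with hA
  have hA0 : 0 < A := by positivity
  set s := min 1 (ε * c / (4 * A)) with hs
  have hs0 : 0 < s := lt_min one_pos (by positivity)
  have hs1 : s ≤ 1 := min_le_left _ _
  have hs2 : s * A ≤ ε * c / 4 := by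
    have := min_le_right 1 (ε * c / (4 * A))
    calc s * A ≤ ε * c / (4 * A) * A := mul_le_mul_of_nonneg_right this hA0.le
      _ = ε * c / 4 := by field_simp
  refine ⟨s * ε * c / 8, by positivity, fun G hG h2 h0 x hx => ?_⟩
  obtain ⟨z, hz, hzb⟩ := hb x hx
  have key : ∀ w ∈ closedBall z c, ‖fderiv ℝ G x (w - x)‖ ≤ ε * c / 2 := by
    intro w hw
    have hwS := hzb hw
    have hy : x + s • (w - x) ∈ S := hS.conv.add_smul_sub_mem hx hwS ⟨hs0.le, hs1⟩
    have ht := taylor1 hS.conv hG h2 hx hy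
    have hn : ‖w - x‖ ≤ R + c := by
      have := mem_closedBall_iff_norm.1 hw
      calc ‖w - x‖ = ‖(w - z) + (z - x)‖ := by congr 1; abel
        _ ≤ ‖w - z‖ + ‖z - x‖ := norm_add_le _ _
        _ ≤ R + c := by linarith
    rw [add_sub_cancel_left, map_smul, norm_smul, Real.norm_eq_abs, abs_of_pos hs0] at ht
    have h3 : ‖s • fderiv ℝ G x (w - x)‖ ≤
        ‖G (x + s • (w - x))‖ + ‖G x‖ + C * (s * ‖w - x‖) * (s * ‖w - x‖) := by
      calc ‖s • fderiv ℝ G x (w - x)‖
          = ‖(G (x + s • (w - x)) - G x) - (G (x + s • (w - x)) - G x - s • fderiv ℝ G x (w - x))‖ := by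
            congr 1; abel
        _ ≤ ‖G (x + s • (w - x)) - G x‖ + ‖G (x + s • (w - x)) - G x - s • fderiv ℝ G x (w - x)‖ :=
            norm_sub_le _ _
        _ ≤ _ := add_le_add (norm_sub_le _ _) ht
    rw [norm_smul, Real.norm_eq_abs, abs_of_pos hs0] at h3
    have h4 : C * (s * ‖w - x‖) * (s * ‖w - x‖) ≤ s * (s * A) := by
      have : ‖w - x‖ ^ 2 ≤ (R + c) ^ 2 := pow_le_pow_left₀ (norm_nonneg _) hn 2
      have h5 : C * ‖w - x‖ ^ 2 ≤ A := by
        calc C * ‖w - x‖ ^ 2 ≤ |C| * ‖w - x‖ ^ 2 :=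
              mul_le_mul_of_nonneg_right (le_abs_self _) (by positivity)
          _ ≤ |C| * (R + c) ^ 2 := mul_le_mul_of_nonneg_left this (abs_nonneg _)
          _ ≤ A := by linarith
      calc C * (s * ‖w - x‖) * (s * ‖w - x‖) = s * (s * (C * ‖w - x‖ ^ 2)) := by ring
        _ ≤ s * (s * A) := by gcongr
    have h6 : s * ‖fderiv ℝ G x (w - x)‖ ≤ s * (ε * c / 2) := by
      have := h0 _ hy
      have := h0 _ hx
      have := mul_le_mul_of_nonneg_left hs2 hs0.le
      nlinarith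
    exact le_of_mul_le_mul_left h6 hs0
  refine ContinuousLinearMap.opNorm_le_of_unit_norm hε.le fun h hh => ?_
  have h1 := key (z + c • h) (by
    rw [mem_closedBall_iff_norm, add_sub_cancel_left, norm_smul, hh, Real.norm_eq_abs, abs_of_pos hc]
    simp)
  have h2' := key z (mem_closedBall_self hc.le)
  have h3 : c • fderiv ℝ G x h = fderiv ℝ G x (z + c • h - x) - fderiv ℝ G x (z - x) := by
    rw [← map_sub, ← map_smul]; congr 1; abel
  have h4 : c * ‖fderiv ℝ G x h‖ ≤ c * ε := by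
    have := norm_sub_le (fderiv ℝ G x (z + c • h - x)) (fderiv ℝ G x (z - x))
    rw [← h3, norm_smul, Real.norm_eq_abs, abs_of_pos hc] at this
    linarith
  exact le_of_mul_le_mul_left h4 hc

theorem norm_fderiv2 (G : X → Y) (x : X) :
    ‖fderiv ℝ (fderiv ℝ G) x‖ = ‖iteratedFDeriv ℝ 2 G x‖ := by
  rw [← norm_iteratedFDeriv_fderiv (n := 1), ← norm_iteratedFDeriv_fderiv (n := 0),
    norm_iteratedFDeriv_zero]

theorem cauchy_fderiv {S : Set X} (hS : Thick S) {F : ℕ → X → Y} (hF : ∀ n, ContDiff ℝ ∞ (F n))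
    {C : ℝ} (hb : ∀ n, ∀ x ∈ S, ‖fderiv ℝ (fderiv ℝ (F n)) x‖ ≤ C)
    (hc : UniformCauchySeqOn F atTop S) :
    UniformCauchySeqOn (fun n => fderiv ℝ (F n)) atTop S := by
  rw [Metric.uniformCauchySeqOn_iff] at hc ⊢
  intro ε hε
  obtain ⟨δ, hδ, h⟩ := interp (Y := Y) hS (C + C) (half_pos hε)
  obtain ⟨N, hN⟩ := hc δ hδ
  refine ⟨N, fun m hm n hn x hx => ?_⟩
  have d1 : ∀ n, Differentiable ℝ (F n) := fun n => (hF n).differentiable (by simp)
  have d2 : ∀ n, Differentiable ℝ (fderiv ℝ (F n)) := fun n =>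
    ((hF n).fderiv_right (m := ∞) (by simp)).differentiable (by simp)
  have e : fderiv ℝ (fun y => F m y - F n y) = fun y => fderiv ℝ (F m) y - fderiv ℝ (F n) y := by
    funext y; exact fderiv_fun_sub (d1 m y) (d1 n y)
  have := h (fun y => F m y - F n y) ((hF m).sub (hF n)) (fun y hy => by
    rw [e, fderiv_fun_sub (d2 m y) (d2 n y)]
    have h3 := norm_sub_le (fderiv ℝ (fderiv ℝ (F m)) y) (fderiv ℝ (fderiv ℝ (F n)) y)
    exact le_trans h3 (add_le_add (hb m y hy) (hb n y hy)))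
    (fun y hy => by rw [← dist_eq_norm]; exact (hN m hm n hn y hy).le) x hx
  rw [e] at this
  rw [dist_eq_norm]; linarith

end

theorem cauchy_iter {S : Set X} (hS : Thick S) (k : ℕ) :
    ∀ {Y : Type} [NormedAddCommGroup Y] [NormedSpace ℝ Y] {F : ℕ → X → Y},
      (∀ n, ContDiff ℝ ∞ (F n)) → (∀ j, ∃ C, ∀ n, ∀ x ∈ S, ‖iteratedFDeriv ℝ j (F n) x‖ ≤ C) →
      UniformCauchySeqOn F atTop S →
      UniformCauchySeqOn (fun n => iteratedFDeriv ℝ k (F n)) atTop S := by
  induction k with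
  | zero =>
    intro Y _ _ F _ _ hc
    rw [Metric.uniformCauchySeqOn_iff] at hc ⊢
    intro ε hε
    obtain ⟨N, hN⟩ := hc ε hε
    refine ⟨N, fun m hm n hn x hx => ?_⟩
    simpa only [iteratedFDeriv_zero_eq_comp, Function.comp_apply, LinearIsometryEquiv.dist_map]
      using hN m hm n hn x hx
  | succ k ih =>
    intro Y _ _ F hF hb hc
    obtain ⟨C, hC⟩ := hb 2
    have h1 := cauchy_fderiv hS hF (C := C) (fun n x hx => by rw [norm_fderiv2]; exact hC n x hx) hc
    have h2 := ih (F := fun n => fderiv ℝ (F n)) (fun n => (hF n).fderiv_right (m := ∞) (by simp))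
      (fun j => by
        obtain ⟨C, hC⟩ := hb (j + 1)
        exact ⟨C, fun n x hx => by rw [norm_iteratedFDeriv_fderiv]; exact hC n x hx⟩) h1
    rw [Metric.uniformCauchySeqOn_iff] at h2 ⊢
    intro ε hε
    obtain ⟨N, hN⟩ := h2 ε hε
    refine ⟨N, fun m hm n hn x hx => ?_⟩
    simpa only [iteratedFDeriv_succ_eq_comp_right, Function.comp_apply, LinearIsometryEquiv.dist_map]
      using hN m hm n hn x hx

variable {Y : Type} [NormedAddCommGroup Y] [NormedSpace ℝ Y]

/-- the derivative of a pointwise limit, within `S` -/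
theorem hasFDerivWithinAt_lim {S : Set X} (hS : Convex ℝ S) {F : ℕ → X → Y}
    (hF : ∀ n, ContDiff ℝ ∞ (F n)) {C : ℝ} (hb : ∀ n, ∀ x ∈ S, ‖fderiv ℝ (fderiv ℝ (F n)) x‖ ≤ C)
    {G : X → Y} (hG : ∀ x ∈ S, Tendsto (fun n => F n x) atTop (𝓝 (G x))) {x : X} (hx : x ∈ S)
    {L : X →L[ℝ] Y} (hL : Tendsto (fun n => fderiv ℝ (F n) x) atTop (𝓝 L)) :
    HasFDerivWithinAt G L S x := by
  have key : ∀ y ∈ S, ‖G y - G x - L (y - x)‖ ≤ C * ‖y - x‖ * ‖y - x‖ := by
    intro y hy
    have h1 : Tendsto (fun n => fderiv ℝ (F n) x (y - x)) atTop (𝓝 (L (y - x))) :=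
      ((ContinuousLinearMap.apply ℝ Y (y - x)).continuous.tendsto L).comp hL
    exact le_of_tendsto' (((hG y hy).sub (hG x hx)).sub h1).norm fun n =>
      taylor1 hS (hF n) (hb n) hx hy
  rw [hasFDerivWithinAt_iff_isLittleO, Asymptotics.isLittleO_iff]
  intro c hc
  have hC0 : 0 ≤ C := le_trans (ContinuousLinearMap.opNorm_nonneg _) (hb 0 x hx)
  have h1 : ∀ᶠ y in 𝓝[S] x, ‖y - x‖ ≤ c / (C + 1) := by
    refine mem_nhdsWithin_of_mem_nhds ?_
    filter_upwards [closedBall_mem_nhds x (show 0 < c / (C + 1) by positivity)] with y hy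
    exact mem_closedBall_iff_norm.1 hy
  filter_upwards [h1, self_mem_nhdsWithin] with y hy hyS
  refine (key y hyS).trans (mul_le_mul_of_nonneg_right ?_ (norm_nonneg _))
  calc C * ‖y - x‖ ≤ (C + 1) * (c / (C + 1)) := by gcongr; linarith
    _ = c := by field_simp

/-- **Smooth limit.** -/
theorem smooth_limit [CompleteSpace Y] {S : Set X} (hS : Thick S) {F : ℕ → X → Y}
    (hF : ∀ n, ContDiff ℝ ∞ (F n)) (hb : ∀ j, ∃ C, ∀ n, ∀ x ∈ S, ‖iteratedFDeriv ℝ j (F n) x‖ ≤ C)
    (hc : UniformCauchySeqOn F atTop S) :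
    ∃ G : X → Y, ContDiffOn ℝ ∞ G S ∧ TendstoUniformlyOn F G atTop S ∧
      TendstoUniformlyOn (fun n => fderiv ℝ (F n)) (fderivWithin ℝ G S) atTop S ∧
      ∀ k, TendstoUniformlyOn (fun n => iteratedFDeriv ℝ k (F n)) (iteratedFDerivWithin ℝ k G S)
        atTop S := by
  have hck := fun k => cauchy_iter hS k hF hb hc
  have hl : ∀ k, ∀ x ∈ S, ∃ a, Tendsto (fun n => iteratedFDeriv ℝ k (F n) x) atTop (𝓝 a) :=
    fun k x hx => cauchySeq_tendsto_of_complete ((hck k).cauchySeq hx)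
  choose! p hp using hl
  have hpu : ∀ k, TendstoUniformlyOn (fun n => iteratedFDeriv ℝ k (F n)) (p k) atTop S :=
    fun k => (hck k).tendstoUniformlyOn_of_tendsto (hp k)
  have hl0 : ∀ x ∈ S, ∃ a, Tendsto (fun n => F n x) atTop (𝓝 a) :=
    fun x hx => cauchySeq_tendsto_of_complete (hc.cauchySeq hx)
  choose! G hG using hl0
  have hT : HasFTaylorSeriesUpToOn ∞ G (fun x k => p k x) S := by
    refine ⟨fun x hx => ?_, fun m _ x hx => ?_, fun m _ => ?_⟩
    · have h1 := ((continuousMultilinearCurryFin0 ℝ X Y).continuous.tendsto _).comp (hp 0 x hx)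
      refine tendsto_nhds_unique h1 ((hG x hx).congr fun n => ?_)
      simp [iteratedFDeriv_zero_eq_comp]
    · obtain ⟨C, hC⟩ := hb (m + 2)
      have e : ∀ n, fderiv ℝ (iteratedFDeriv ℝ m (F n)) =
          continuousMultilinearCurryLeftEquiv ℝ (fun _ : Fin (m + 1) => X) Y ∘
            iteratedFDeriv ℝ (m + 1) (F n) := fun n => fderiv_iteratedFDeriv
      refine hasFDerivWithinAt_lim hS.conv (F := fun n => iteratedFDeriv ℝ m (F n))
        (fun n => (hF n).iteratedFDeriv_right (by exact_mod_cast le_top)) (C := C) (fun n y hy => ?_) (hp m) hx ?_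
      · rw [norm_fderiv2, ← norm_iteratedFDeriv_fderiv, e n,
          LinearIsometryEquiv.norm_iteratedFDeriv_comp_left, ← norm_iteratedFDeriv_fderiv,
          norm_iteratedFDeriv_zero, norm_fderiv_iteratedFDeriv]
        exact hC n y hy
      · have h1 := ((continuousMultilinearCurryLeftEquiv ℝ (fun _ : Fin (m + 1) => X)
          Y).continuous.tendsto _).comp (hp (m + 1) x hx)
        refine h1.congr fun n => ?_
        simp only [e n, Function.comp_apply]
    · exact (hpu m).continuousOn (Frequently.of_forall fun n =>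
        ((hF n).continuous_iteratedFDeriv (by exact_mod_cast le_top)).continuousOn)
  have hk : ∀ k, TendstoUniformlyOn (fun n => iteratedFDeriv ℝ k (F n))
      (iteratedFDerivWithin ℝ k G S) atTop S := fun k =>
    (hpu k).congr_right fun x hx =>
      hT.eq_iteratedFDerivWithin_of_uniqueDiffOn (by exact_mod_cast le_top) hS.uniqueDiffOn hx
  refine ⟨G, hT.contDiffOn, hc.tendstoUniformlyOn_of_tendsto hG, ?_, hk⟩
  obtain ⟨C, hC⟩ := hb 2
  have h2 : ∀ n, ∀ x ∈ S, ‖fderiv ℝ (fderiv ℝ (F n)) x‖ ≤ C := fun n x hx => by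
    rw [norm_fderiv2]; exact hC n x hx
  have h1 := cauchy_fderiv hS hF h2 hc
  refine h1.tendstoUniformlyOn_of_tendsto fun x hx => ?_
  obtain ⟨L, hL⟩ := cauchySeq_tendsto_of_complete (h1.cauchySeq hx)
  rw [(hasFDerivWithinAt_lim hS.conv hF h2 hG hx hL).fderivWithin (hS.uniqueDiffOn x hx)]
  exact hL

end Crest.Agent.R106.Lim
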