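import Mathlib

/-! # R106/Lim2 (helper59): a uniformly Cauchy sequence with uniform bounds on all derivatives has a smooth limit -/

set_option autoImplicit false
set_option linter.unusedSectionVars false
open Set Filter Topology
open scoped ContDiff

namespace Crest.Agent.R106.Lim2

variable {E G : Type*} [NormedAddCommGroup E] [NormedSpace ℝ E] [NormedAddCommGroup G] [NormedSpace ℝ G]

/-- uniform cone condition -/
def Cone (s : Set E) : Prop := ∃ r R : ℝ, 0 < r ∧ ∀ x ∈ s, ∃ y, Metric.closedBall y r ⊆ s ∧ ‖y - x‖ ≤ R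

theorem Cone.uniqueDiffOn {s : Set E} (h : Cone s) (hs : Convex ℝ s) : UniqueDiffOn ℝ s := by
  obtain ⟨r, R, hr, h⟩ := h
  intro x hx
  obtain ⟨y, hy, -⟩ := h x hx
  exact uniqueDiffOn_convex hs ⟨y, mem_interior_iff_mem_nhds.2 (mem_of_superset (Metric.closedBall_mem_nhds y hr) hy)⟩ x hx

theorem cone_slab {T : ℝ} (hT : 0 < T) : Cone (Icc 0 T ×ˢ (univ : Set E)) := by
  refine ⟨T / 2, T / 2, by positivity, fun x hx => ⟨(T / 2, x.2), fun z hz => ⟨?_, trivial⟩, ?_⟩⟩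
  · have h1 : |z.1 - T / 2| ≤ T / 2 := (norm_fst_le (z - (T / 2, x.2))).trans (mem_closedBall_iff_norm.1 hz)
    rw [abs_le] at h1
    exact ⟨by linarith [h1.1], by linarith [h1.2]⟩
  · rw [Prod.norm_def]
    refine max_le ?_ (by simp; positivity)
    rw [Prod.fst_sub, Real.norm_eq_abs, abs_le]
    exact ⟨by linarith [hx.1.2], by linarith [hx.1.1]⟩

theorem convex_slab (T : ℝ) : Convex ℝ (Icc 0 T ×ˢ (univ : Set E)) := (convex_Icc 0 T).prod convex_univ

/-- second order Taylor bound -/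
theorem lim_taylor {s : Set E} (hs : Convex ℝ s) {g : E → G} {g' : E → E →L[ℝ] G} (hd : ∀ x ∈ s, HasFDerivWithinAt g (g' x) s x)
    {M : ℝ} (hM : 0 ≤ M) (hL : ∀ x ∈ s, ∀ y ∈ s, ‖g' y - g' x‖ ≤ M * ‖y - x‖) {x y : E} (hx : x ∈ s) (hy : y ∈ s) :
    ‖g y - g x - g' x (y - x)‖ ≤ M * ‖y - x‖ * ‖y - x‖ := by
  have hsub : segment ℝ x y ⊆ s := hs.segment_subset hx hy
  refine (convex_segment x y).norm_image_sub_le_of_norm_hasFDerivWithin_le' (fun z hz => (hd z (hsub hz)).mono hsub)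
    (fun z hz => (hL x hx z (hsub hz)).trans (mul_le_mul_of_nonneg_left ?_ hM)) (left_mem_segment ℝ x y) (right_mem_segment ℝ x y)
  have := dist_add_dist_of_mem_segment hz
  rw [← dist_eq_norm, ← dist_eq_norm, dist_comm z, dist_comm y]
  linarith [dist_nonneg (x := z) (y := y)]

/-- interpolation: small function and bounded second derivative give a small first derivative -/
theorem lim_interp {s : Set E} (hs : Convex ℝ s) (hc : Cone s) {M : ℝ} (hM : 0 ≤ M) {ε : ℝ} (hε : 0 < ε) : ∃ δ : ℝ, 0 < δ ∧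
    ∀ (g : E → G) (g' : E → E →L[ℝ] G), (∀ x ∈ s, HasFDerivWithinAt g (g' x) s x) → (∀ x ∈ s, ∀ y ∈ s, ‖g' y - g' x‖ ≤ M * ‖y - x‖) →
      (∀ x ∈ s, ‖g x‖ ≤ δ) → ∀ x ∈ s, ‖g' x‖ ≤ ε := by
  obtain ⟨r, R, hr, hc⟩ := hc
  obtain ⟨θ, hθ, hθ1, hθ2⟩ : ∃ θ : ℝ, 0 < θ ∧ θ ≤ 1 ∧ 4 * M * θ * (|R| + r) ^ 2 ≤ ε * r := by
    refine ⟨min 1 (ε * r / (4 * M * (|R| + r) ^ 2 + 1)), by positivity, min_le_left _ _, ?_⟩
    have h1 := (le_div_iff₀ (by positivity)).1 (min_le_right 1 (ε * r / (4 * M * (|R| + r) ^ 2 + 1)))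
    have h2 : 0 < min 1 (ε * r / (4 * M * (|R| + r) ^ 2 + 1)) := by positivity
    nlinarith
  refine ⟨ε * r * θ / 8, by positivity, fun g g' hd hL hg x hx => ?_⟩
  obtain ⟨y, hy, hR⟩ := hc x hx
  have key : ∀ z ∈ Metric.closedBall y r, ‖g' x (z - x)‖ ≤ ε * r / 2 := fun z hz => by
    have h1 : x + θ • (z - x) ∈ s := hs.add_smul_sub_mem hx (hy hz) ⟨hθ.le, hθ1⟩
    have h2 := lim_taylor hs hd hM hL hx h1
    rw [add_sub_cancel_left, map_smul, norm_smul, Real.norm_of_nonneg hθ.le] at h2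
    have h3 : ‖z - x‖ ≤ |R| + r := by
      have := norm_add_le (z - y) (y - x)
      rw [sub_add_sub_cancel] at this
      linarith [mem_closedBall_iff_norm.1 hz, le_abs_self R]
    have h4 : θ * ‖g' x (z - x)‖ ≤ ‖g (x + θ • (z - x))‖ + ‖g x‖ + ‖g (x + θ • (z - x)) - g x - θ • g' x (z - x)‖ := by
      have e : θ • g' x (z - x) = g (x + θ • (z - x)) - g x - (g (x + θ • (z - x)) - g x - θ • g' x (z - x)) := by abel
      rw [← Real.norm_of_nonneg hθ.le, ← norm_smul, Real.norm_of_nonneg hθ.le]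
      conv_lhs => rw [e]
      exact (norm_sub_le _ _).trans (add_le_add_left (norm_sub_le _ _) _)
    have h5 : M * (θ * ‖z - x‖) * (θ * ‖z - x‖) ≤ M * (θ * (|R| + r)) * (θ * (|R| + r)) := by gcongr
    refine le_of_mul_le_mul_left ?_ hθ
    nlinarith [hg _ h1, hg x hx]
  refine ContinuousLinearMap.opNorm_le_of_unit_norm hε.le fun h hh => ?_
  have h1 := key (y + r • h) (by rw [mem_closedBall_iff_norm, add_sub_cancel_left, norm_smul, hh, mul_one, Real.norm_of_nonneg hr.le])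
  have h2 := key y (Metric.mem_closedBall_self hr.le)
  have h3 : r • g' x h = g' x (y + r • h - x) - g' x (y - x) := by rw [← map_sub, ← map_smul]; congr 1; abel
  have h4 : r * ‖g' x h‖ ≤ ε * r := by
    rw [← Real.norm_of_nonneg hr.le, ← norm_smul, Real.norm_of_nonneg hr.le, h3]
    linarith [norm_sub_le (g' x (y + r • h - x)) (g' x (y - x))]
  exact le_of_mul_le_mul_left (by linarith) hr

theorem lim_cauchy {s : Set E} (hs : Convex ℝ s) (hc : Cone s) {g : ℕ → E → G} {g' : ℕ → E → E →L[ℝ] G}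
    (hd : ∀ n, ∀ x ∈ s, HasFDerivWithinAt (g n) (g' n x) s x) {M : ℝ} (hM : 0 ≤ M)
    (hL : ∀ n, ∀ x ∈ s, ∀ y ∈ s, ‖g' n y - g' n x‖ ≤ M * ‖y - x‖) (h : UniformCauchySeqOn g atTop s) :
    UniformCauchySeqOn g' atTop s := by
  rw [Metric.uniformCauchySeqOn_iff] at h ⊢
  intro ε hε
  obtain ⟨δ, hδ, h1⟩ := lim_interp (G := G) hs hc (M := 2 * M) (by positivity) (half_pos hε)
  obtain ⟨N, hN⟩ := h δ hδ
  refine ⟨N, fun m hm n hn x hx => ?_⟩
  rw [dist_eq_norm]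
  refine (h1 (fun x => g m x - g n x) (fun x => g' m x - g' n x) (fun x hx => (hd m x hx).sub (hd n x hx)) (fun x hx y hy => ?_)
    (fun x hx => (dist_eq_norm _ _).symm.le.trans (hN m hm n hn x hx).le) x hx).trans_lt (half_lt_self hε)
  rw [sub_sub_sub_comm]
  linarith [norm_sub_le (g' m y - g' m x) (g' n y - g' n x), hL m x hx y hy, hL n x hx y hy]

theorem lim_deriv {s : Set E} (hs : Convex ℝ s) {g : ℕ → E → G} {g' : ℕ → E → E →L[ℝ] G}
    (hd : ∀ n, ∀ x ∈ s, HasFDerivWithinAt (g n) (g' n x) s x) {M : ℝ} (hM : 0 ≤ M)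
    (hL : ∀ n, ∀ x ∈ s, ∀ y ∈ s, ‖g' n y - g' n x‖ ≤ M * ‖y - x‖) {v : E → G} {v' : E →L[ℝ] G} {x : E} (hx : x ∈ s)
    (h : ∀ y ∈ s, Tendsto (fun n => g n y) atTop (𝓝 (v y))) (h' : Tendsto (fun n => g' n x) atTop (𝓝 v')) :
    HasFDerivWithinAt v v' s x := by
  have h1 : ∀ y ∈ s, ‖v y - v x - v' (y - x)‖ ≤ M * ‖y - x‖ * ‖y - x‖ := fun y hy =>
    le_of_tendsto' (((h y hy).sub (h x hx)).sub (((ContinuousLinearMap.apply ℝ G (y - x)).continuous.tendsto v').comp h')).norm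
      fun n => lim_taylor hs (hd n) hM (hL n) hx hy
  rw [hasFDerivWithinAt_iff_isLittleO, Asymptotics.isLittleO_iff]
  intro c hc
  have h2 : Tendsto (fun y => M * ‖y - x‖) (𝓝[s] x) (𝓝 0) := by
    have : Tendsto (fun y => M * ‖y - x‖) (𝓝 x) (𝓝 (M * ‖x - x‖)) := (by fun_prop : Continuous fun y => M * ‖y - x‖).tendsto x
    rw [sub_self, norm_zero, mul_zero] at this
    exact this.mono_left nhdsWithin_le_nhds
  filter_upwards [self_mem_nhdsWithin, h2.eventually (ge_mem_nhds hc)] with y hy hy'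
  exact (h1 y hy).trans (mul_le_mul_of_nonneg_right hy' (norm_nonneg _))

/-- **smooth limit** -/
theorem smooth_limit [CompleteSpace G] {s : Set E} (hs : Convex ℝ s) (hc : Cone s) {u : ℕ → E → G}
    (hu : ∀ n, ContDiffOn ℝ ∞ (u n) s) (hb : ∀ k : ℕ, ∃ C : ℝ, ∀ n, ∀ x ∈ s, ‖iteratedFDerivWithin ℝ k (u n) s x‖ ≤ C)
    (h : UniformCauchySeqOn u atTop s) : ∃ v : E → G, ContDiffOn ℝ ∞ v s ∧ TendstoUniformlyOn u v atTop s ∧
      ∀ k : ℕ, TendstoUniformlyOn (fun n => iteratedFDerivWithin ℝ k (u n) s) (iteratedFDerivWithin ℝ k v s) atTop s := by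
  have hU := hc.uniqueDiffOn hs
  have hd : ∀ (k n : ℕ), ∀ x ∈ s, HasFDerivWithinAt (iteratedFDerivWithin ℝ k (u n) s)
      (iteratedFDerivWithin ℝ (k + 1) (u n) s x).curryLeft s x := fun k n x hx =>
    ((hu n).ftaylorSeriesWithin hU).fderivWithin k (by exact_mod_cast ENat.natCast_lt_top k) x hx
  have hL : ∀ k : ℕ, ∃ M : ℝ, 0 ≤ M ∧ ∀ n, ∀ x ∈ s, ∀ y ∈ s,
      ‖iteratedFDerivWithin ℝ k (u n) s y - iteratedFDerivWithin ℝ k (u n) s x‖ ≤ M * ‖y - x‖ := fun k => by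
    obtain ⟨C, hC⟩ := hb (k + 1)
    refine ⟨max C 0, le_max_right _ _, fun n x hx y hy => hs.norm_image_sub_le_of_norm_hasFDerivWithin_le (hd k n)
      (fun z hz => ?_) hx hy⟩
    rw [ContinuousMultilinearMap.curryLeft_norm]
    exact (hC n z hz).trans (le_max_left _ _)
  have hL' : ∀ k : ℕ, ∃ M : ℝ, 0 ≤ M ∧ ∀ n, ∀ x ∈ s, ∀ y ∈ s, ‖(iteratedFDerivWithin ℝ (k + 1) (u n) s y).curryLeft -
      (iteratedFDerivWithin ℝ (k + 1) (u n) s x).curryLeft‖ ≤ M * ‖y - x‖ := fun k => (hL (k + 1)).imp fun M hM =>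
    ⟨hM.1, fun n x hx y hy => by
      refine le_trans (le_of_eq ?_) (hM.2 n x hx y hy)
      rw [← ContinuousMultilinearMap.curryLeft_norm (iteratedFDerivWithin ℝ (k + 1) (u n) s y - _)]
      rfl⟩
  have hC : ∀ k : ℕ, UniformCauchySeqOn (fun n => iteratedFDerivWithin ℝ k (u n) s) atTop s := fun k => by
    induction k with
    | zero =>
      rw [Metric.uniformCauchySeqOn_iff] at h ⊢
      simpa only [iteratedFDerivWithin_zero_eq_comp, Function.comp_apply, LinearIsometryEquiv.dist_map] using h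
    | succ k ih =>
      obtain ⟨M, hM, hM'⟩ := hL' k
      have := lim_cauchy hs hc (hd k) hM hM' ih
      rw [Metric.uniformCauchySeqOn_iff] at this ⊢
      intro ε hε
      obtain ⟨N, hN⟩ := this ε hε
      refine ⟨N, fun m hm n hn x hx => lt_of_eq_of_lt ?_ (hN m hm n hn x hx)⟩
      rw [dist_eq_norm, dist_eq_norm, ← ContinuousMultilinearMap.curryLeft_norm (iteratedFDerivWithin ℝ (k + 1) (u m) s x - _)]
      rfl
  have hq : ∀ x (k : ℕ), ∃ q, x ∈ s → Tendsto (fun n => iteratedFDerivWithin ℝ k (u n) s x) atTop (𝓝 q) := fun x k => by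
    by_cases hx : x ∈ s
    · exact (cauchySeq_tendsto_of_complete ((hC k).cauchySeq hx)).imp fun q hq _ => hq
    · exact ⟨0, fun h => absurd h hx⟩
  choose q hq using hq
  have hq' : ∀ (k : ℕ), ∀ x ∈ s, HasFDerivWithinAt (q · k) (q x (k + 1)).curryLeft s x := fun k x hx => by
    obtain ⟨M, hM, hM'⟩ := hL' k
    exact lim_deriv hs (hd k) hM hM' hx (fun y hy => hq y k hy)
      (((continuousMultilinearCurryLeftEquiv ℝ (fun _ : Fin (k + 1) => E) G).continuous.tendsto _).comp (hq x (k + 1) hx))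
  have hT : HasFTaylorSeriesUpToOn ∞ (fun x => (q x 0).curry0) q s :=
    ⟨fun _ _ => rfl, fun k _ x hx => hq' k x hx, fun k _ x hx => (hq' k x hx).continuousWithinAt⟩
  have hlim : ∀ k : ℕ, TendstoUniformlyOn (fun n => iteratedFDerivWithin ℝ k (u n) s)
      (iteratedFDerivWithin ℝ k (fun x => (q x 0).curry0) s) atTop s := fun k =>
    (hC k).tendstoUniformlyOn_of_tendsto fun x hx => by
      rw [← hT.eq_iteratedFDerivWithin_of_uniqueDiffOn (by exact_mod_cast le_top) hU hx]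
      exact hq x k hx
  refine ⟨_, hT.contDiffOn, h.tendstoUniformlyOn_of_tendsto fun x hx => ?_, hlim⟩
  exact ((continuousMultilinearCurryFin0 ℝ E G).continuous.tendsto _).comp (hq x 0 hx)

/-- version for globally smooth `u n`; the first derivatives converge, all derivatives of the limit are bounded -/
theorem smooth_limit' [CompleteSpace G] {s : Set E} (hs : Convex ℝ s) (hc : Cone s) {u : ℕ → E → G}
    (hu : ∀ n, ContDiff ℝ ∞ (u n)) (hb : ∀ k : ℕ, ∃ C : ℝ, ∀ n, ∀ x ∈ s, ‖iteratedFDeriv ℝ k (u n) x‖ ≤ C)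
    (h : UniformCauchySeqOn u atTop s) : ∃ v : E → G, ContDiffOn ℝ ∞ v s ∧ TendstoUniformlyOn u v atTop s ∧
      TendstoUniformlyOn (fun n => fderiv ℝ (u n)) (fderivWithin ℝ v s) atTop s ∧
      (∀ k : ℕ, TendstoUniformlyOn (fun n => iteratedFDeriv ℝ k (u n)) (iteratedFDerivWithin ℝ k v s) atTop s) ∧
      ∀ k : ℕ, ∃ C : ℝ, ∀ x ∈ s, ‖iteratedFDerivWithin ℝ k v s x‖ ≤ C := by
  have hU := hc.uniqueDiffOn hs
  have e : ∀ (k n : ℕ), ∀ x ∈ s, iteratedFDerivWithin ℝ k (u n) s x = iteratedFDeriv ℝ k (u n) x := fun k n x hx =>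
    iteratedFDerivWithin_eq_iteratedFDeriv hU ((hu n).contDiffAt.of_le (by exact_mod_cast le_top)) hx
  obtain ⟨v, h1, h2, h3⟩ := smooth_limit hs hc (fun n => (hu n).contDiffOn)
    (fun k => (hb k).imp fun C hC n x hx => by rw [e k n x hx]; exact hC n x hx) h
  have h4 : ∀ k : ℕ, TendstoUniformlyOn (fun n => iteratedFDeriv ℝ k (u n)) (iteratedFDerivWithin ℝ k v s) atTop s := fun k =>
    (h3 k).congr (Eventually.of_forall fun n x hx => e k n x hx)
  refine ⟨v, h1, h2, ?_, h4, fun k => (hb k).imp fun C hC x hx =>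
    le_of_tendsto' ((h4 k).tendsto_at hx).norm fun n => hC n x hx⟩
  have h5 := (continuousMultilinearCurryFin1 ℝ E G).isometry.uniformContinuous.comp_tendstoUniformlyOn (h4 1)
  refine (h5.congr (Eventually.of_forall fun n x hx => ?_)).congr_right fun x hx => ?_
  · ext y
    simp
  · ext y
    simp [iteratedFDerivWithin_one_apply (hU x hx)]

end Crest.Agent.R106.Lim2
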