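import Crest.Agent.R106.Basic

/-! Row 106: assembly of the blocks. -/

set_option autoImplicit false

noncomputable section

namespace Crest.Agent.R106

open MeasureTheory Set Filter Topology Crest.AnalysisR.VecCalc3 Crest.AnalysisR.PDE.RVM
open scoped ContDiff

theorem norm_cross3_le' (a b : R3) : ‖cross3 a b‖ ≤ ‖crossL‖ * ‖a‖ * ‖b‖ := crossL.le_opNorm₂ a b

/-- the momentum is Lipschitz in time along true characteristics -/
theorem mom_lip {f₀ : P6 → ℝ} {E B : ST → R3} (hE : B1 E) (hB : B1 B) (L : Lag f₀ (vf E B)) (T : ℝ) :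
    ∃ C : ℝ, 0 ≤ C ∧ ∀ z s t, 0 ≤ s → s ≤ t → t ≤ T → ‖(L.Z t z).2‖ ≤ ‖(L.Z s z).2‖ + C * (t - s) := by
  obtain ⟨C, hC0, hC⟩ := (b1_vf hE hB).2 T
  refine ⟨C, hC0, fun z s t hs hst ht => ?_⟩
  have hd : ∀ r, HasDerivAt (fun r => (L.Z r z).2) (vf E B (r, L.Z r z)).2 r := fun r =>
    (ContinuousLinearMap.snd ℝ R3 R3).hasFDerivAt.comp_hasDerivAt r (L.ode z r)
  have := norm_image_sub_le_of_norm_deriv_le_segment' (f := fun r => (L.Z r z).2) (a := s) (b := t) (C := C)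
    (fun r _ => (hd r).hasDerivWithinAt) (fun r hr => (norm_snd_le _).trans
      (hC (r, L.Z r z) (abs_le.2 ⟨by linarith [hr.1, hr.2], by linarith [hr.2]⟩)).1) t ⟨hst, le_rfl⟩
  have h2 := norm_sub_norm_le (L.Z t z).2 (L.Z s z).2
  linarith

section step

variable {f₀ : P6 → ℝ} {P T : ℝ} {G : R3 → (R3 × R3 →L[ℝ] R3)} {f : ℝ × P6 → ℝ} {E B : ST → R3}

/-- the solution of the cut-off transport equation is constant along the cut-off flow -/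
theorem cut_trans (hf : ContDiff ℝ ∞ f) (h0 : ∀ z, f (0, z) = f₀ z)
    (hp : ∀ z : ℝ × P6, 0 ≤ z.1 → z.1 ≤ T → fderiv ℝ f z (1, vfG G E B z) = 0) (Lc : Lag f₀ (vfG G E B))
    {t : ℝ} (ht0 : 0 ≤ t) (ht : t ≤ T) (z : P6) : f (t, Lc.Z t z) = f₀ z := by
  have hd : ∀ s, HasDerivAt (fun s => f (s, Lc.Z s z)) (fderiv ℝ f (s, Lc.Z s z) (1, vfG G E B (s, Lc.Z s z))) s :=
    fun s => hasDerivAt_along (hf.differentiable (by simp)) (Lc.ode z s)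
  have := constant_of_has_deriv_right_zero (f := fun s => f (s, Lc.Z s z)) (a := 0) (b := t)
    (fun s _ => (hd s).continuousAt.continuousWithinAt) (fun s hs => by
      have := (hd s).hasDerivWithinAt (s := Ici s)
      rwa [hp (s, Lc.Z s z) hs.1 (hs.2.le.trans ht)] at this) t ⟨ht0, le_rfl⟩
  rw [this, Lc.Z0, h0]

/-- as long as the true characteristic stays in the ball it is a cut-off characteristic -/
theorem flows_eq (hG : IsCut P G) (hE : B1 E) (hB : B1 B) (L : Lag f₀ (vf E B)) (Lc : Lag f₀ (vfG G E B)) {τ : ℝ}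
    {z : P6} (hz : ∀ t, 0 ≤ t → t < τ → ‖(L.Z t z).2‖ ≤ P) {t : ℝ} (ht0 : 0 ≤ t) (ht : t ≤ τ) :
    L.Z t z = Lc.Z t z := by
  obtain ⟨K, hK⟩ := (b1_vfG hG hE hB).lip τ
  refine ODE_solution_unique_of_mem_Icc_right (v := fun t y => vfG G E B (t, y)) (s := fun _ => univ) (K := K)
    (a := 0) (b := τ) (f := fun s => L.Z s z) (g := fun s => Lc.Z s z)
    (fun s hs => (hK s (abs_le.2 ⟨by linarith [hs.1, hs.2], hs.2.le⟩)).lipschitzOnWith) (L.cont z).continuousOn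
    (fun s hs => ?_) (fun _ _ => mem_univ _) (Lc.cont z).continuousOn (fun s _ => (Lc.ode z s).hasDerivWithinAt)
    (fun _ _ => mem_univ _) (by simp only [L.Z0, Lc.Z0]) ⟨ht0, ht⟩
  have e : vfG G E B (s, L.Z s z) = vf E B (s, L.Z s z) := by
    simp only [vfG, vf, force]
    rw [hG.2.2 _ _ _ (hz s hs.1 hs.2)]
  simp only [e]
  exact (L.ode z s).hasDerivWithinAt

theorem dens_eq (hG : IsCut P G) (hE : B1 E) (hB : B1 B) (hf : ContDiff ℝ ∞ f) (h0 : ∀ z, f (0, z) = f₀ z)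
    (hp : ∀ z : ℝ × P6, 0 ≤ z.1 → z.1 ≤ T → fderiv ℝ f z (1, vfG G E B z) = 0)
    (L : Lag f₀ (vf E B)) (Lc : Lag f₀ (vfG G E B)) {τ : ℝ} (hτ : τ ≤ T)
    (hz : ∀ z, f₀ z ≠ 0 → ∀ t, 0 ≤ t → t < τ → ‖(L.Z t z).2‖ ≤ P) {t : ℝ} (ht0 : 0 ≤ t) (ht : t ≤ τ) (w : P6) :
    L.f (t, w) = f (t, w) := by
  obtain ⟨z, hzw⟩ := (Lc.bij t).2 w
  obtain ⟨z', hzw'⟩ := (L.bij t).2 w
  have h1 : f (t, w) = f₀ z := by rw [← hzw]; exact cut_trans hf h0 hp Lc ht0 (ht.trans hτ) z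
  have h2 : L.f (t, w) = f₀ z' := by rw [← hzw']; exact L.trans t z'
  rw [h1, h2]
  by_cases ha : f₀ z = 0
  · by_contra hb
    have hb' : f₀ z' ≠ 0 := by rwa [ha] at hb
    have := flows_eq hG hE hB L Lc (hz z' hb') ht0 ht
    rw [hzw', ← hzw] at this
    exact hb (by rw [(Lc.bij t).1 this])
  · have := flows_eq hG hE hB L Lc (hz z ha) ht0 ht
    rw [hzw, ← hzw'] at this
    rw [(L.bij t).1 this]

end step

theorem maxwellAt_congr {f g : ℝ → R3 → R3 → ℝ} {E B : ℝ → R3 → R3} {t : ℝ} {x : R3} (h : ∀ v, g t x v = f t x v)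
    (hm : MaxwellAt f E B t x) : MaxwellAt g E B t x := by
  have e : g t x = f t x := funext h
  unfold MaxwellAt currentDensity chargeDensity at *
  rw [e]
  exact hm

/-- a smooth solution on every `[0, T]` -/
theorem exists_sol (hF : S_FLOW) (hL : S_LIOU) (hT : S_TR) (hA : S_AP) {f₀ : R3 → R3 → ℝ} {E₀ B₀ : R3 → R3}
    (h : IsAdmissibleDatum f₀ E₀ B₀) {T : ℝ} (hT0 : 0 ≤ T) : Nonempty (Sol f₀ E₀ B₀ T) := by
  obtain ⟨P, hP⟩ := hA f₀ E₀ B₀ h T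
  obtain ⟨G, f, E, B, hG, hf, hE, hB, hf0, hE0, hB0, hp, hm⟩ := hT f₀ E₀ B₀ h (P + 1) T
  obtain ⟨L⟩ := hF.of_b1 h.2.1 (b1_vf hE.b1 hB.b1)
  obtain ⟨Lc⟩ := hF.of_b1 h.2.1 (b1_vfG hG hE.b1 hB.b1)
  have mk : ∀ τ ≤ T, (∀ z, Function.uncurry f₀ z ≠ 0 → ∀ t, 0 ≤ t → t < τ → ‖(L.Z t z).2‖ ≤ P + 1) →
      ∃ s : Sol f₀ E₀ B₀ τ, s.L.Z = L.Z := fun τ hτ hz =>
    ⟨⟨E, B, hE, hB, L, fun t ht => hL _ E B hE.1 hB.1 L t ht, hE0, hB0, fun t ht0 ht x => eqs_of L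
      (maxwellAt_congr (f := cur3 f) (fun v => dens_eq hG hE.b1 hB.b1 hf (fun z => hf0 z.1 z.2) hp L Lc hτ hz ht0 ht (x, v))
        (hm t ht0 (ht.trans hτ) x))⟩, rfl⟩
  have bd : ∀ τ ≤ T, (∀ z, Function.uncurry f₀ z ≠ 0 → ∀ t, 0 ≤ t → t < τ → ‖(L.Z t z).2‖ ≤ P + 1) →
      ∀ z, Function.uncurry f₀ z ≠ 0 → ∀ t, 0 ≤ t → t ≤ τ → ‖(L.Z t z).2‖ ≤ P := fun τ hτ hz z hz0 t ht0 ht => by
    obtain ⟨s, hs⟩ := mk τ hτ hz
    have := hP τ hτ s t ht0 ht z hz0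
    rwa [hs] at this
  obtain ⟨C, hC0, hC⟩ := mom_lip hE.b1 hB.b1 L T
  have hδ : 0 < (C + 1)⁻¹ := by positivity
  have hδ1 : C * (C + 1)⁻¹ ≤ 1 := by
    rw [← div_eq_mul_inv, div_le_one (by positivity)]; linarith
  generalize (C + 1)⁻¹ = δ at hδ hδ1
  have ind : ∀ n : ℕ, ∀ z, Function.uncurry f₀ z ≠ 0 → ∀ t, 0 ≤ t → t ≤ min (n * δ) T → ‖(L.Z t z).2‖ ≤ P := by
    intro n
    induction n with
    | zero =>
      refine bd _ (min_le_right _ _) fun z _ t ht0 ht => ?_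
      have := min_le_left (((0 : ℕ) : ℝ) * δ) T
      simp only [Nat.cast_zero, zero_mul] at this ht
      linarith
    | succ n ih =>
      refine bd _ (min_le_right _ _) fun z hz t ht0 ht => ?_
      have ht1 : t < (n + 1) * δ := by
        have := lt_of_lt_of_le ht (min_le_left _ _)
        rwa [Nat.cast_succ] at this
      have ht2 : t < T := lt_of_lt_of_le ht (min_le_right _ _)
      by_cases hc : t ≤ n * δ
      · exact (ih z hz t ht0 (le_min hc ht2.le)).trans (by linarith)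
      · push Not at hc
        have hn : 0 ≤ (n : ℝ) * δ := by positivity
        have a1 := ih z hz (n * δ) hn (le_min le_rfl (by linarith))
        have a2 := hC z (n * δ) t hn hc.le ht2.le
        have a3 : C * (t - n * δ) ≤ C * δ := mul_le_mul_of_nonneg_left (by linarith) hC0
        linarith
  obtain ⟨n, hn⟩ := exists_nat_ge (T / δ)
  have hn' : T ≤ n * δ := by rwa [div_le_iff₀ hδ] at hn
  obtain ⟨s, -⟩ := mk T le_rfl fun z hz t ht0 ht =>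
    (ind n z hz t ht0 (le_min (by linarith) ht.le)).trans (by linarith)
  exact ⟨s⟩

section glue

variable {T T' : ℝ} {f₀ : R3 → R3 → ℝ} {E₀ B₀ : R3 → R3} {f f' : ℝ → R3 → R3 → ℝ} {E B E' B' : ℝ → R3 → R3}

theorem classical_mono (h : IsClassicalSolutionOn T f₀ E₀ B₀ f E B) (hT : T' ≤ T) :
    IsClassicalSolutionOn T' f₀ E₀ B₀ f E B := by
  obtain ⟨h1, h2, h3, h4, h5, h6, h7, h8, h9⟩ := h
  have hs : Ico 0 T' ⊆ Ico 0 T := Ico_subset_Ico_right hT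
  refine ⟨h1.mono (prod_mono hs subset_rfl), h2.mono (prod_mono hs subset_rfl), h3.mono (prod_mono hs subset_rfl),
    h4, h5, h6, fun t ht0 ht => h7 t ht0 (ht.trans_le hT), fun S hS0 hS => h8 S hS0 (hS.trans_le hT), fun t ht => ?_⟩
  obtain ⟨a, b, c, d⟩ := h9 t (hs ht)
  exact ⟨a, b, c.mono_left (nhdsWithin_mono _ hs), d.mono_left (nhdsWithin_mono _ hs)⟩

theorem classical_congr (hT : 0 < T) (h : IsClassicalSolutionOn T f₀ E₀ B₀ f E B)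
    (he : ∀ t ∈ Ico 0 T, f' t = f t ∧ E' t = E t ∧ B' t = B t) : IsClassicalSolutionOn T f₀ E₀ B₀ f' E' B' := by
  obtain ⟨h1, h2, h3, h4, h5, h6, h7, h8, h9⟩ := h
  have h0 := he 0 ⟨le_rfl, hT⟩
  refine ⟨h1.congr fun p hp => by rw [(he p.1 hp.1).1], h2.congr fun p hp => by rw [(he p.1 hp.1).2.1],
    h3.congr fun p hp => by rw [(he p.1 hp.1).2.2], h0.1.trans h4, h0.2.1.trans h5, h0.2.2.trans h6,
    fun t ht0 ht x => ?_, fun S hS0 hS => ?_, fun t ht => ?_⟩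
  · have hn : ∀ᶠ s in 𝓝 t, s ∈ Ico 0 T := mem_of_superset (Ioo_mem_nhds ht0 ht) Ioo_subset_Ico_self
    obtain ⟨e1, e2, e3⟩ := he t ⟨ht0.le, ht⟩
    have d1 : ∀ v, deriv (fun s => f' s x v) t = deriv (fun s => f s x v) t := fun v =>
      EventuallyEq.deriv_eq (hn.mono fun s hs => by simp only [(he s hs).1])
    have d2 : ∀ i, deriv (fun s => E' s x i) t = deriv (fun s => E s x i) t := fun i =>
      EventuallyEq.deriv_eq (hn.mono fun s hs => by simp only [(he s hs).2.1])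
    have d3 : ∀ i, deriv (fun s => B' s x i) t = deriv (fun s => B s x i) t := fun i =>
      EventuallyEq.deriv_eq (hn.mono fun s hs => by simp only [(he s hs).2.2])
    have := h7 t ht0 ht x
    unfold EquationsHoldAt currentDensity chargeDensity at *
    simp only [d1, d2, d3, e1, e2, e3]
    exact this
  · obtain ⟨R, hR⟩ := h8 S hS0 hS
    exact ⟨R, fun t ht x v hx => by rw [(he t ⟨ht.1, ht.2.trans_lt hS⟩).1]; exact hR t ht x v hx⟩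
  · obtain ⟨a, b, c, d⟩ := h9 t ht
    obtain ⟨-, e2, e3⟩ := he t ht
    rw [e2, e3]
    refine ⟨a, b, c.congr' ?_, d.congr' ?_⟩
    · filter_upwards [self_mem_nhdsWithin] with s hs
      rw [(he s hs).2.1]
    · filter_upwards [self_mem_nhdsWithin] with s hs
      rw [(he s hs).2.2]

theorem contDiffOn_glue {Y F : Type} [NormedAddCommGroup Y] [NormedSpace ℝ Y] [NormedAddCommGroup F] [NormedSpace ℝ F]
    {u : ℝ × Y → F} {w : ℕ → ℝ × Y → F} (hw : ∀ n, ContDiff ℝ ∞ (w n))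
    (he : ∀ n : ℕ, ∀ p : ℝ × Y, p.1 ∈ Ico (0 : ℝ) (n + 1) → u p = w n p) : ContDiffOn ℝ ∞ u (Ici 0 ×ˢ univ) := by
  intro p hp
  obtain ⟨n, hn⟩ := exists_nat_ge p.1
  have hp1 : p.1 < n + 1 := by linarith
  refine (hw n).contDiffAt.contDiffWithinAt.congr_of_eventuallyEq ?_ (he n p ⟨hp.1, hp1⟩)
  have : ∀ᶠ q : ℝ × Y in 𝓝 p, q.1 < n + 1 := continuous_fst.continuousAt.eventually_lt continuousAt_const hp1
  filter_upwards [self_mem_nhdsWithin, mem_nhdsWithin_of_mem_nhds this] with q hq hq1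
  exact he n q ⟨hq.1, hq1⟩

end glue

theorem assembly (hF : S_FLOW) (hL : S_LIOU) (hT : S_TR) (hA : S_AP) (hC : S_CL) (hU : S_UNI)
    (f₀ : R3 → R3 → ℝ) (E₀ B₀ : R3 → R3) (h : IsAdmissibleDatum f₀ E₀ B₀) :
    ∃ f : ℝ → R3 → R3 → ℝ, ∃ E B : ℝ → R3 → R3,
      (∀ T : ℝ, 0 < T → IsClassicalSolutionOn T f₀ E₀ B₀ f E B) ∧
      ContDiffOn ℝ ∞ (fun p : ℝ × R3 × R3 => f p.1 p.2.1 p.2.2) (Set.Ici 0 ×ˢ Set.univ) ∧
      ContDiffOn ℝ ∞ (fun p : ℝ × R3 => E p.1 p.2) (Set.Ici 0 ×ˢ Set.univ) ∧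
      ContDiffOn ℝ ∞ (fun p : ℝ × R3 => B p.1 p.2) (Set.Ici 0 ×ˢ Set.univ) ∧
      ∀ T : ℝ, 0 < T → ∀ (f' : ℝ → R3 → R3 → ℝ) (E' B' : ℝ → R3 → R3),
        IsClassicalSolutionOn T f₀ E₀ B₀ f' E' B' →
        ∀ t ∈ Set.Ico 0 T, f' t = f t ∧ E' t = E t ∧ B' t = B t := by
  have ex : ∀ n : ℕ, Nonempty (Sol f₀ E₀ B₀ (n + 1)) := fun n => exists_sol hF hL hT hA h (by positivity)
  let s : ∀ n : ℕ, Sol f₀ E₀ B₀ (n + 1) := fun n => Classical.choice (ex n)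
  have cl : ∀ n : ℕ, IsClassicalSolutionOn (n + 1) f₀ E₀ B₀ (cur3 (s n).L.f) (cur2 (s n).E) (cur2 (s n).B) :=
    fun n => hC f₀ E₀ B₀ h _ (s n)
  let f : ℝ → R3 → R3 → ℝ := fun t => cur3 (s ⌈t⌉₊).L.f t
  let E : ℝ → R3 → R3 := fun t => cur2 (s ⌈t⌉₊).E t
  let B : ℝ → R3 → R3 := fun t => cur2 (s ⌈t⌉₊).B t
  have he : ∀ n : ℕ, ∀ t ∈ Ico (0 : ℝ) (n + 1),
      f t = cur3 (s n).L.f t ∧ E t = cur2 (s n).E t ∧ B t = cur2 (s n).B t := fun n t ht => by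
    have h1 : t < (⌈t⌉₊ : ℝ) + 1 := by linarith [Nat.le_ceil t]
    exact hU (min ((n : ℝ) + 1) (⌈t⌉₊ + 1)) f₀ E₀ B₀ _ _ _ _ _ _ (classical_mono (cl n) (min_le_left _ _))
      (classical_mono (cl ⌈t⌉₊) (min_le_right _ _)) t ⟨ht.1, lt_min ht.2 h1⟩
  have hcl : ∀ T : ℝ, 0 < T → IsClassicalSolutionOn T f₀ E₀ B₀ f E B := fun T hT0 => by
    obtain ⟨n, hn⟩ := exists_nat_ge T
    have hn' : T ≤ (n : ℝ) + 1 := by linarith
    exact classical_congr hT0 (classical_mono (cl n) hn') fun t ht => he n t ⟨ht.1, ht.2.trans_le hn'⟩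
  refine ⟨f, E, B, hcl, contDiffOn_glue (w := fun n => (s n).L.f) (fun n => (s n).L.smooth) fun n p hp => ?_,
    contDiffOn_glue (w := fun n => (s n).E) (fun n => (s n).hE.1) fun n p hp => ?_,
    contDiffOn_glue (w := fun n => (s n).B) (fun n => (s n).hB.1) fun n p hp => ?_,
    fun T hT0 f' E' B' h' => hU T f₀ E₀ B₀ f f' E B E' B' (hcl T hT0) h'⟩
  · simp only [(he n p.1 hp).1]; rfl
  · simp only [(he n p.1 hp).2.1]; rfl
  · simp only [(he n p.1 hp).2.2]; rfl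

end Crest.Agent.R106
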